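import Vale.Agent.Lib.P028.Weighted

open MeasureTheory Filter

namespace Vale.Agent.Results.P028.DivisorSquare

/-- For every shift `γ` and every `ψ ≥ 0`: if `∑ ψ(q) / τ(q)² = ∞`, where `τ(q)` is the number
of divisors of `q`, then for almost every real `x` the inequality `|q x - a - γ| < ψ(q)` has
infinitely many solutions `q ≥ 1` (with `a` an integer). -/
theorem result (γ : ℝ) (ψ : ℕ → ℝ) (hψ0 : ∀ q, 0 ≤ ψ q)
    (hdiv : ¬ Summable (fun q => ψ q / ((Nat.divisors q).card : ℝ) ^ 2)) :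
    ∀ᵐ x : ℝ, {q : ℕ | 0 < q ∧ ∃ a : ℤ, |(q : ℝ) * x - a - γ| < ψ q}.Infinite :=
  Vale.Agent.Lib.P028.real_divisor_square γ ψ hψ0 hdiv

end Vale.Agent.Results.P028.DivisorSquare
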