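import Vale.Agent.Lib.P028.Weighted

open MeasureTheory Filter

namespace Vale.Agent.Results.P028.DivisorWeight

/-- Weak inhomogeneous Duffin-Schaeffer with a divisor-function weight. Let `f ≥ 0` be summable
and nonincreasing on the positive integers, and let `τ(q)` be the number of divisors of `q`.
For every sequence of shifts `γ q` (in particular a constant shift) and every `ψ ≥ 0`: if
`∑ ψ(q) f(τ(q)) = ∞`, then for almost every real `x` the inequality `|q x - a - γ q| < ψ(q)`
has infinitely many solutions `q ≥ 1` (with `a` an integer). -/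
theorem result (γ : ℕ → ℝ) (ψ : ℕ → ℝ) (hψ0 : ∀ q, 0 ≤ ψ q)
    (f : ℕ → ℝ) (hf0 : ∀ n, 0 ≤ f n) (hfa : AntitoneOn f (Set.Ici 1)) (hfs : Summable f)
    (hdiv : ¬ Summable (fun q => ψ q * f (Nat.divisors q).card)) :
    ∀ᵐ x : ℝ, {q : ℕ | 0 < q ∧ ∃ a : ℤ, |(q : ℝ) * x - a - γ q| < ψ q}.Infinite :=
  Vale.Agent.Lib.P028.real_weighted γ ψ hψ0 f hf0 hfa hfs hdiv

end Vale.Agent.Results.P028.DivisorWeight
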