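import Vale.Agent.Lib.P028.Main

open MeasureTheory Filter

namespace Vale.Agent.Results.P028.GcdSumCriterion

/-- A gcd-sum criterion for the weak inhomogeneous Duffin-Schaeffer problem, valid for every
shift `γ`: if `0 ≤ ψ ≤ 1/2`, `∑ ψ(q) = ∞`, and the gcd sum
`∑_{1 ≤ q < r ≤ N} gcd(q, r) min(ψ(q)/q, ψ(r)/r)` is `≤ ε (∑_{q ≤ N} ψ(q))²` for infinitely
many `N`, for each `ε > 0`, then for almost every real `x` the inequality `|q x - a - γ| < ψ(q)`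
has infinitely many solutions `q ≥ 1` (with `a` an integer). -/
theorem result (γ : ℝ) (ψ : ℕ → ℝ) (hψ0 : ∀ q, 0 ≤ ψ q) (hψ1 : ∀ q, ψ q ≤ 1 / 2)
    (hdiv : ¬ Summable ψ)
    (hgcd : ∀ ε > 0, ∃ᶠ N in atTop,
      ∑ r ∈ Finset.Icc 1 N, ∑ q ∈ Finset.Ico 1 r,
          (Nat.gcd q r : ℝ) * min (ψ q / q) (ψ r / r)
        ≤ ε * (∑ q ∈ Finset.Icc 1 N, ψ q) ^ 2) :
    ∀ᵐ x : ℝ, {q : ℕ | 0 < q ∧ ∃ a : ℤ, |(q : ℝ) * x - a - γ| < ψ q}.Infinite :=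
  Vale.Agent.Lib.P028.real_main γ ψ hψ0 hψ1 hdiv hgcd

end Vale.Agent.Results.P028.GcdSumCriterion
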