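import Vale.Agent.Lib.P028.Weighted
import Vale.Agent.Lib.P028.Main

open MeasureTheory Filter

namespace Vale.Agent.Results.P028.TwoCriteria

/-- Two criteria for the weak inhomogeneous Duffin-Schaeffer problem, in one statement.
First: let `f ≥ 0` be summable and nonincreasing on the positive integers and `τ(q)` the number
of divisors of `q`; for every sequence of shifts `γ q` and every `ψ ≥ 0` with
`∑ ψ(q) f(τ(q)) = ∞`, for almost every real `x` the inequality `|q x - a - γ q| < ψ(q)` has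
infinitely many solutions `q ≥ 1` (with `a` an integer).
Second: for every shift `γ` and every `ψ` with `0 ≤ ψ ≤ 1/2`, `∑ ψ(q) = ∞` and the gcd sum
`∑_{1 ≤ q < r ≤ N} gcd(q, r) min(ψ(q)/q, ψ(r)/r)` at most `ε (∑_{q ≤ N} ψ(q))²` for infinitely
many `N`, for each `ε > 0`, the same conclusion holds with the constant shift `γ`. -/
theorem result :
    (∀ (γ : ℕ → ℝ) (ψ : ℕ → ℝ), (∀ q, 0 ≤ ψ q) →
      ∀ f : ℕ → ℝ, (∀ n, 0 ≤ f n) → AntitoneOn f (Set.Ici 1) → Summable f →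
      ¬ Summable (fun q => ψ q * f (Nat.divisors q).card) →
      ∀ᵐ x : ℝ, {q : ℕ | 0 < q ∧ ∃ a : ℤ, |(q : ℝ) * x - a - γ q| < ψ q}.Infinite) ∧
    (∀ (γ : ℝ) (ψ : ℕ → ℝ), (∀ q, 0 ≤ ψ q) → (∀ q, ψ q ≤ 1 / 2) → ¬ Summable ψ →
      (∀ ε > 0, ∃ᶠ N in atTop,
        ∑ r ∈ Finset.Icc 1 N, ∑ q ∈ Finset.Ico 1 r,
            (Nat.gcd q r : ℝ) * min (ψ q / q) (ψ r / r)
          ≤ ε * (∑ q ∈ Finset.Icc 1 N, ψ q) ^ 2) →
      ∀ᵐ x : ℝ, {q : ℕ | 0 < q ∧ ∃ a : ℤ, |(q : ℝ) * x - a - γ| < ψ q}.Infinite) :=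
  ⟨fun γ ψ hψ0 f hf0 hfa hfs hdiv =>
      Vale.Agent.Lib.P028.real_weighted γ ψ hψ0 f hf0 hfa hfs hdiv,
    fun γ ψ hψ0 hψ1 hdiv hgcd => Vale.Agent.Lib.P028.real_main γ ψ hψ0 hψ1 hdiv hgcd⟩

end Vale.Agent.Results.P028.TwoCriteria
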